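import Mathlib
import Vale.Agent.P105.Defs
import Vale.Agent.P105.SalemDef
import Vale.Agent.P105.Final
import Vale.Agent.P105.Base
import Vale.Agent.P105.Base2
import Vale.Agent.P105.Salem2
import Vale.Agent.P105.Classify

/-!
# P105: Bernoulli convolutions of quartic Salem numbers are singular
-/

open MeasureTheory

namespace Vale.Agent.P105

theorem singular_of_base {b th Q0 : ℝ} (hb : 3 / 2 ≤ b) (h1 : 1 ≤ Q0) (h2 : Q0 ≤ (90:ℝ)^(3:ℝ))
    (h3 : Has b th 90 Q0) : (bernoulliConv b⁻¹).MutuallySingular volume := by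
  apply singular_of_has (th := th) hb
  intro Y
  obtain ⟨y, Q, hy, hQ1, hQ, hH⟩ := Has.limit hb le_rfl h1 h2 h3 1 one_pos Y
  exact ⟨y, Q, hy, hQ1, by linarith, hH⟩

theorem singular_quartic {b : ℝ} (hb : IsSalem b) (hd : (minpoly ℚ b).natDegree = 4)
    (hb2 : b < 2) : (bernoulliConv b⁻¹).MutuallySingular volume := by
  rcases quartic_salem_lt_two hb hd hb2 with h | h
  · have hlb := sb_lb
    have e : b = sb := eq_of_add_inv_eq hb.1 (by linarith) (by rw [h, sb_add_inv])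
    rw [e]
    obtain ⟨Q0, h1, h2, h3⟩ := base sb_lb sb_ub sb_add_inv (traceInt_eta 62)
    exact singular_of_base (by linarith) h1 h2 h3
  · have hlb := sb2_lb
    have e : b = sb2 := eq_of_add_inv_eq hb.1 (by linarith) (by rw [h, sb2_add_inv]; rfl)
    rw [e]
    obtain ⟨Q0, h1, h2, h3⟩ := base2
    exact singular_of_base (by linarith) h1 h2 h3

end Vale.Agent.P105

open Vale.Agent.P105 in
/-- For every `l` in `(1/2, 1)` whose reciprocal is a Salem number of degree 4 the Bernoulli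
convolution `ν_l` is singular (it gives full mass to a Borel set of Lebesgue measure zero);
there are two such `l`, the roots in `(1/2,1)` of `x⁴ - 2x³ + x² - 2x + 1` and of
`x⁴ - x³ - x² - x + 1`, and their reciprocals are not Pisot numbers. -/
theorem Vale.Agent.Results.P105.SalemQuartic.result :
    (∀ l : ℝ, 1 / 2 < l → l < 1 → IsSalem l⁻¹ → (minpoly ℚ l⁻¹).natDegree = 4 →
      IsProbabilityMeasure (bernoulliConv l) ∧
      ∃ A : Set ℝ, MeasurableSet A ∧ volume A = 0 ∧ bernoulliConv l A = 1) ∧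
    (∃ l : ℝ, 1 / 2 < l ∧ l < 1 ∧ l ^ 4 - 2 * l ^ 3 + l ^ 2 - 2 * l + 1 = 0 ∧
      IsSalem l⁻¹ ∧ (minpoly ℚ l⁻¹).natDegree = 4 ∧ ¬ IsPisot l⁻¹) ∧
    (∃ l : ℝ, 1 / 2 < l ∧ l < 1 ∧ l ^ 4 - l ^ 3 - l ^ 2 - l + 1 = 0 ∧
      IsSalem l⁻¹ ∧ (minpoly ℚ l⁻¹).natDegree = 4 ∧ ¬ IsPisot l⁻¹) := by
  refine ⟨?_, ?_, ?_⟩
  · intro l hl1 hl2 hS hd
    haveI := bernoulliConv_prob l
    have hl0 : 0 < l := by linarith
    have hlt : l⁻¹ < 2 := by
      rw [inv_lt_comm₀ hl0 (by norm_num)]; linarith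
    have hsing := singular_quartic hS hd hlt
    rw [inv_inv] at hsing
    refine ⟨bernoulliConv_prob l, ?_⟩
    obtain ⟨s, hs, h1, h2⟩ := hsing
    refine ⟨sᶜ, hs.compl, h2, ?_⟩
    rw [prob_compl_eq_one_sub hs, h1, tsub_zero]
  · have hlb := sb_lb
    have hub := sb_ub
    have h0 := sb_pos
    refine ⟨sb⁻¹, ?_, ?_, ?_, ?_, ?_, ?_⟩
    · rw [one_div]; exact inv_strictAnti₀ h0 (by linarith)
    · exact inv_lt_one_of_one_lt₀ (by linarith)
    · have h := sb_quartic
      field_simp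
      linarith
    · rw [inv_inv]; exact sb_isSalem
    · rw [inv_inv]; exact sb_natDegree
    · rw [inv_inv]; exact sb_isSalem.not_pisot
  · have hlb := sb2_lb
    have hub := sb2_ub
    have h0 := sb2_pos
    refine ⟨sb2⁻¹, ?_, ?_, ?_, ?_, ?_, ?_⟩
    · rw [one_div]; exact inv_strictAnti₀ h0 (by linarith)
    · exact inv_lt_one_of_one_lt₀ (by linarith)
    · have h := sb2_quartic
      field_simp
      linarith
    · rw [inv_inv]; exact sb2_isSalem
    · rw [inv_inv]; exact sb2_natDegree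
    · rw [inv_inv]; exact sb2_isSalem.not_pisot
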