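import Mathlib
import Vale.Agent.P105.Defs
import Vale.Agent.P105.Final
import Vale.Agent.P105.Beta
import Vale.Agent.P105.Base

/-!
# P105: a singular Bernoulli convolution whose parameter is not the reciprocal of a Pisot number
-/

open MeasureTheory

namespace Vale.Agent.P105

theorem singular_sb : (bernoulliConv sb⁻¹).MutuallySingular volume := by
  have hb : (3 / 2 : ℝ) ≤ sb := by have := sb_lb; linarith
  obtain ⟨Q0, h1, h2, h3⟩ := base sb_lb sb_ub sb_add_inv (traceInt_eta 62)
  apply singular_of_has (th := sth) hb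
  intro Y
  obtain ⟨y, Q, hy, hQ1, hQ, hH⟩ := Has.limit hb le_rfl h1 h2 h3 1 one_pos Y
  exact ⟨y, Q, hy, hQ1, by linarith, hH⟩

end Vale.Agent.P105

open Vale.Agent.P105 in
/-- There is a parameter `l` in `(1/2, 1)`, namely the reciprocal of the quartic Salem number
`1.8832…` (root of `x⁴ - 2x³ + x² - 2x + 1`), such that `1/l` is not a Pisot number and the
Bernoulli convolution `ν_l` is singular: it gives full mass to a Borel set of Lebesgue measure
zero. -/
theorem Vale.Agent.Results.P105.SalemSingular.result :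
    ∃ l : ℝ, 1 / 2 < l ∧ l < 1 ∧ l ^ 4 - 2 * l ^ 3 + l ^ 2 - 2 * l + 1 = 0 ∧
      ¬ IsPisot l⁻¹ ∧ IsProbabilityMeasure (bernoulliConv l) ∧
      ∃ A : Set ℝ, MeasurableSet A ∧ volume A = 0 ∧ bernoulliConv l A = 1 := by
  have hlb := sb_lb
  have hub := sb_ub
  have h0 := sb_pos
  haveI := bernoulliConv_prob sb⁻¹
  refine ⟨sb⁻¹, ?_, ?_, ?_, ?_, bernoulliConv_prob _, ?_⟩
  · rw [one_div]
    exact inv_strictAnti₀ h0 (by linarith)
  · exact inv_lt_one_of_one_lt₀ (by linarith)
  · have h := sb_quartic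
    field_simp
    linarith
  · rw [inv_inv]; exact sb_not_pisot
  · obtain ⟨s, hs, h1, h2⟩ := singular_sb
    refine ⟨sᶜ, hs.compl, h2, ?_⟩
    rw [prob_compl_eq_one_sub hs, h1, tsub_zero]
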